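import Vale.Agent.Lib.P154C.D4.P2

set_option linter.defProp false

namespace Vale.Agent.Lib.P154C.D4

open Vale.Agent.Lib.P154B

def tr2_check : tr2.check = true := by decide +kernel

def tr2_chk2 : tr2.chk2 = true := by decide +kernel

def lp2_check : lp2.check = true := by decide +kernel

def lp2_chk2 : lp2.chk2 = true := by decide +kernel

def tr2_g1 : grpOK tr2.T.par.b tr2.T.par.P tr2_gl = true := by decide +kernel

def tr2_g2 : grpOK tr2.T.par.b tr2.T.par.P tr2_ge = true := by decide +kernel

def lp2_g1 : grpOK lp2.T.par.b lp2.T.par.P lp2_gl = true := by decide +kernel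

def lp2_g2 : grpOK lp2.T.par.b lp2.T.par.P lp2_ge = true := by decide +kernel

end Vale.Agent.Lib.P154C.D4
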