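import Vale.Agent.Lib.P154C.D4.P3

set_option linter.defProp false

namespace Vale.Agent.Lib.P154C.D4

open Vale.Agent.Lib.P154B

def tr3_check : tr3.check = true := by decide +kernel

def tr3_chk2 : tr3.chk2 = true := by decide +kernel

def lp3_check : lp3.check = true := by decide +kernel

def lp3_chk2 : lp3.chk2 = true := by decide +kernel

def tr3_g1 : grpOK tr3.T.par.b tr3.T.par.P tr3_gl = true := by decide +kernel

def tr3_g2 : grpOK tr3.T.par.b tr3.T.par.P tr3_ge = true := by decide +kernel

def lp3_g1 : grpOK lp3.T.par.b lp3.T.par.P lp3_gl = true := by decide +kernel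

def lp3_g2 : grpOK lp3.T.par.b lp3.T.par.P lp3_ge = true := by decide +kernel

end Vale.Agent.Lib.P154C.D4
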