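import Vale.Agent.Lib.P154C.D4.P3
import Vale.Agent.Lib.P154C.D4.St
import Vale.Agent.Lib.P154_cl98.QTest

set_option linter.defProp false

namespace Vale.Agent.Lib.P154C.D4

open Vale.Agent.Lib.P154B Vale.Agent.Lib.P154.Cl

def last_x : Nat.ble 8967476376022912335872 (lp3.T.testSum xA (lp3.parent s_279).1 (lp3.parent s_279).2) = true := by decide +kernel

def last_q : Nat.ble 18803568988144973905920 (lp3.T.testSum qA' (lp3.parent s_279).1 (lp3.parent s_279).2) = true := by decide +kernel

end Vale.Agent.Lib.P154C.D4
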