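import Vale.Agent.Lib.P154C.D4.P1
import Vale.Agent.Lib.P154C.D4.St

set_option linter.defProp false

namespace Vale.Agent.Lib.P154C.D4

open Vale.Agent.Lib.P154B

def run_108 : Nat.beq (iterG lp1 lp1_gl lp1_ge 4 s_104) s_108 = true := by decide +kernel

def run_112 : Nat.beq (iterG lp1 lp1_gl lp1_ge 4 s_108) s_112 = true := by decide +kernel

end Vale.Agent.Lib.P154C.D4
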