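import Vale.Agent.Lib.P154C.D4.P3
import Vale.Agent.Lib.P154C.D4.St

set_option linter.defProp false

namespace Vale.Agent.Lib.P154C.D4

open Vale.Agent.Lib.P154B

def run_264 : Nat.beq (iterG lp3 lp3_gl lp3_ge 4 s_260) s_264 = true := by decide +kernel

def run_268 : Nat.beq (iterG lp3 lp3_gl lp3_ge 4 s_264) s_268 = true := by decide +kernel

end Vale.Agent.Lib.P154C.D4
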